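import Vale.Agent.P159.T1.H664.ArmDefs

/-!
ARM.4: the boxes of `StmtV` fit into the slit box without the cell.
-/

namespace Vale.Agent.P159.T1.H634

open Vale.Agent.P159.T1.D Vale.Agent.P159.T1.H664

theorem mem_SB {R r : ℕ} {f : Z2} : f ∈ SB R r ↔ -(R : ℤ) ≤ f.1 ∧ f.1 < r + R ∧ -(R : ℤ) ≤ f.2 ∧
    f.2 < R ∧ ¬ (f.2 = -1 ∧ (f.1 < 0 ∨ (r : ℤ) ≤ f.1)) := by
  simp only [SB, Finset.mem_filter, Finset.mem_product, Finset.mem_Ico]
  tauto

theorem boxes : StmtBoxes := by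
  intro q hq R
  refine ⟨R + 4, 1, fun A r a hA ha har Q hQ f h1 h2 h3 h4 => ?_⟩
  have h12 : 12 * a ≤ r := by
    have : (12 * a : ℝ) ≤ r := by linarith
    exact_mod_cast this
  have hAr : (R + 4) * (12 * a) ≤ A * r := Nat.mul_le_mul hA h12
  have hcast : ((A * r : ℕ) : ℤ) = (A : ℤ) * r := by push_cast; ring
  have hR0 : 0 ≤ (a : ℤ) * R := by positivity
  have hAr' : 12 * ((a : ℤ) * R) + 48 * a ≤ (A : ℤ) * r := by
    have : ((R : ℤ) + 4) * (12 * a) ≤ A * r := by exact_mod_cast hAr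
    linarith
  have hq6 : (a / q : ℕ) * 6 ≤ a := by
    have := Nat.div_le_div_left (a := a) hq (by norm_num)
    omega
  obtain ⟨m, hm⟩ : ∃ m, m = 6 * a / (5 * q) := ⟨_, rfl⟩
  have hmq : 6 * a < 5 * q * (m + 1) := by
    rw [hm]; exact Nat.lt_mul_div_succ (6 * a) (show 0 < 5 * q by omega)
  have hm30 : m ≤ a := by
    have h30 : m ≤ 6 * a / 30 := by
      rw [hm]; exact Nat.div_le_div_left (by omega) (by norm_num)
    omega
  obtain ⟨t, ht⟩ : ∃ t, t = a / q := ⟨_, rfl⟩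
  rw [← ht] at hq6
  have hQ' : ∀ f : Z2, f ∈ Q ↔ (f.2 ≤ -2 ∧ (q : ℤ) * (-1 - f.2) ≤ -f.1) ∧
      (a : ℤ) ≤ -f.1 ∧ -f.1 < (a : ℤ) + t := by
    intro f
    rw [hQ f, ← ht]
    simp only [strip, cone, Set.mem_ofPred_eq]
    push_cast
    rfl
  rw [← ht, ← hm]
  simp only [Finset.mem_sdiff, hQ', mem_SB, iso, hcast, if_true, Bool.false_eq_true, if_false]
  push_cast
  generalize (A : ℤ) * r = P at *
  generalize (a : ℤ) * R = S at *
  obtain ⟨i, j⟩ := f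
  simp only at h1 h2 h3 h4 ⊢
  refine ⟨⟨by omega, by omega⟩, ⟨by omega, by omega⟩, ⟨by omega, ?_⟩⟩
  rintro ⟨⟨-, h5⟩, h6, h7⟩
  have h8 : (6 : ℤ) * a < 5 * q * (m + 1) := by exact_mod_cast hmq
  have h9 : (q : ℤ) * (m + 1) ≤ q * (-1 - (-(m + 1) + (-1 - j))) :=
    mul_le_mul_of_nonneg_left (by omega) (by positivity)
  generalize (q : ℤ) * (-1 - (-(m + 1) + (-1 - j))) = W at *
  have h10 : (5 : ℤ) * q * (m + 1) = 5 * (q * (m + 1)) := by ring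
  rw [h10] at h8
  generalize (q : ℤ) * (m + 1) = X at *
  omega

end Vale.Agent.P159.T1.H634
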