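import Vale.Agent.P159.T1.H931.Dom

/-!
Regions of cells with an arbitrary set of free spins: partition functions.
-/

set_option linter.all false
set_option autoImplicit false

open MeasureTheory Filter Topology
open scoped BigOperators

namespace Vale.Agent.P159.T1.H634

open Vale.Agent.P159 Vale.Agent.P159.UJ Vale.Agent.P159.H950
open Vale.Agent.P159.T1.H931 (chiI zI zI_pos sum_KR')

/-- energy of a region -/
noncomputable def En (b : ℝ) (R : Finset (ℤ × ℤ)) (θ : Ginf) : ℝ :=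
  ∑ c ∈ R, ∑ t : HT, b / 2 * cosT (θ (hu c t) - θ (hv c t))

theorem zI_zero (b : ℝ) (R : Finset (ℤ × ℤ)) (I : Set (ℤ × ℤ)) :
    zI b R I 0 = ∫ x, Real.exp (En b R (proj I x)) ∂muInf := by
  unfold zI Zr
  congr 1
  ext x
  congr 1
  have h : twR R 0 = 0 := rfl
  simp only [h, Pi.zero_apply, Real.cos_zero, Real.sin_zero, mul_one, mul_zero, sub_zero]
  exact sum_KR' R fun c t => b / 2 * cosT (proj I x (hu c t) - proj I x (hv c t))

theorem En_cont (b : ℝ) (R : Finset (ℤ × ℤ)) : Continuous (En b R) :=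
  continuous_finsetSum _ fun c _ => continuous_finsetSum _ fun t _ =>
    continuous_const.mul (cont_cos.comp ((continuous_apply _).sub (continuous_apply _)))

theorem En_union (b : ℝ) {R R' : Finset (ℤ × ℤ)} (h : Disjoint R R') (θ : Ginf) :
    En b (R ∪ R') θ = En b R θ + En b R' θ := Finset.sum_union h

theorem proj_iff {I I' : Set (ℤ × ℤ)} {v : ℤ × ℤ} (h : v ∈ I ↔ v ∈ I') (x : Ginf) :
    proj I x v = proj I' x v := by
  by_cases h1 : v ∈ I
  · rw [proj_of_mem h1, proj_of_mem (h.1 h1)]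
  · rw [proj_of_notMem h1, proj_of_notMem (fun h2 => h1 (h.2 h2))]

theorem En_congr (b : ℝ) {R : Finset (ℤ × ℤ)} {θ θ' : Ginf}
    (h : ∀ c ∈ R, ∀ t, θ (hu c t) = θ' (hu c t) ∧ θ (hv c t) = θ' (hv c t)) :
    En b R θ = En b R θ' :=
  Finset.sum_congr rfl fun c hc => Finset.sum_congr rfl fun t _ => by
    rw [(h c hc t).1, (h c hc t).2]

theorem zI_congr (b : ℝ) {R : Finset (ℤ × ℤ)} {I I' : Set (ℤ × ℤ)}
    (h : ∀ c ∈ R, ∀ t, (hu c t ∈ I ↔ hu c t ∈ I') ∧ (hv c t ∈ I ↔ hv c t ∈ I')) :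
    zI b R I 0 = zI b R I' 0 := by
  rw [zI_zero, zI_zero]
  congr 1
  ext x
  rw [En_congr b fun c hc t => ⟨proj_iff (h c hc t).1 x, proj_iff (h c hc t).2 x⟩]

/-- the energy of the reflected region -/
theorem En_refl (b : ℝ) (r : Refl) (R : Finset (ℤ × ℤ)) (θ : Ginf) :
    En b (R.image r.cm) θ = En b R (relabel r.s θ) := by
  have hinj : Function.Injective r.cm := fun c d h => by rw [← r.cm_cm c, h, r.cm_cm]
  have ht : Function.Injective r.tm := fun c d h => by rw [← r.tm_tm c, h, r.tm_tm]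
  unfold En
  rw [Finset.sum_image fun c _ d _ h => hinj h]
  refine Finset.sum_congr rfl fun c _ => ?_
  have hb : Function.Bijective r.tm := ⟨ht, fun t => ⟨r.tm t, r.tm_tm t⟩⟩
  rw [← hb.sum_comp]
  refine Finset.sum_congr rfl fun t _ => ?_
  congr 1
  show cosT (θ (hu (r.cm c) (r.tm t)) - θ (hv (r.cm c) (r.tm t))) =
    cosT (θ (r.s (hu c t)) - θ (r.s (hv c t)))
  rcases r.ends c t with ⟨_, h1, h2⟩ | ⟨_, h1, h2⟩
  · rw [h1, h2]
  · rw [h1, h2, ← cosT_neg]
    congr 1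
    abel

theorem zI_refl (b : ℝ) (r : Refl) (R : Finset (ℤ × ℤ)) (I : Set (ℤ × ℤ)) :
    zI b (R.image r.cm) {v | r.s v ∈ I} 0 = zI b R I 0 := by
  have hinj : Function.Injective r.s := fun c d h => by rw [← r.s_s c, h, r.s_s]
  rw [zI_zero, zI_zero]
  simp_rw [En_refl]
  have h := integral_relabel r.s hinj muInf muInf
    (f := fun θ => Real.exp (En b R (proj I θ)))
    (Real.continuous_exp.comp ((En_cont b R).comp (proj_cont I)))
  rw [← h]
  congr 1
  ext x
  congr 2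
  funext v
  show proj {v | r.s v ∈ I} x (r.s v) = proj I (relabel r.s x) v
  by_cases h1 : v ∈ I
  · rw [proj_of_mem h1, proj_of_mem (by show r.s (r.s v) ∈ I; rwa [r.s_s])]
    rfl
  · rw [proj_of_notMem h1, proj_of_notMem (by show ¬ r.s (r.s v) ∈ I; rwa [r.s_s])]

end Vale.Agent.P159.T1.H634
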