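import Vale.Agent.P159.T1.H664.ArmDefs
import Vale.Agent.P159.T1.D.H634.Pol

/-!
ARM.4: the derivative of the test function below the lip.
-/

open Filter Topology MeasureTheory

namespace Vale.Agent.P159.T1.H634

open Vale.Agent.P159.T1.D Vale.Agent.P159.T1.H664 Vale.Agent.P159.T1.D.H634

theorem contDiff_gp (d : ℝ) {n : ℕ∞} : ContDiff ℝ n (gp d) := by
  unfold gp
  have h1 : ContDiff ℝ n fun x : ℝ => Real.smoothTransition ((x - 4 * d) / (4 * d)) :=
    Real.smoothTransition.contDiff.comp (by fun_prop)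
  have h2 : ContDiff ℝ n fun x : ℝ => Real.smoothTransition (4 * x - 1) :=
    Real.smoothTransition.contDiff.comp (by fun_prop)
  exact h1.mul (contDiff_const.sub h2)

theorem contDiff_us (d : ℝ) {n : ℕ∞} : ContDiff ℝ n (us d) := by
  unfold us
  have h1 : ContDiff ℝ n fun y : ℝ => Real.smoothTransition ((y - d ^ 2) / d ^ 2) :=
    Real.smoothTransition.contDiff.comp (by fun_prop)
  have h2 : ContDiff ℝ n fun y : ℝ => Real.smoothTransition ((y - d) / d ^ 2) :=
    Real.smoothTransition.contDiff.comp (by fun_prop)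
  exact contDiff_const.mul (h1.mul (contDiff_const.sub h2))

theorem hasStrictDerivAt_gp (d x : ℝ) : HasStrictDerivAt (gp d) (deriv (gp d) x) x :=
  ((contDiff_gp d (n := 1)).contDiffAt).hasStrictDerivAt (by norm_num)

theorem hasStrictDerivAt_up (d y : ℝ) : HasStrictDerivAt (up d) (us d y) y :=
  Continuous.integral_hasStrictDerivAt (contDiff_us d (n := 0)).continuous 0 y

theorem lw_fst (z : ℝ × ℝ) : (lw z).1 = lr z := rfl

theorem lw_snd (z : ℝ × ℝ) : (lw z).2 = ar z + Real.pi := rfl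

theorem ar_neg {z : ℝ × ℝ} (hz : z.2 < 0) : ar z < 0 :=
  Complex.arg_neg_iff.2 hz

theorem lw_snd_pos (z : ℝ × ℝ) : 0 < (lw z).2 := by
  rw [lw_snd]
  have := Complex.neg_pi_lt_arg (tc z)
  unfold ar
  linarith

theorem cut_of_neg {z : ℝ × ℝ} (hz : z.2 < 0) : z ∈ cut := Or.inr hz.ne

/-- the derivative of `phW v d (lw z)` below the lip -/
theorem phDeriv : StmtPhDeriv := by
  intro v d _ _ z hz
  have hcut := cut_of_neg hz
  have hpos := lw_snd_pos z
  have h1 := hasStrictFDerivAt_lr hcut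
  have h2 : HasStrictFDerivAt (fun z => (lw z).2) _ z := (hasStrictFDerivAt_ar hcut).add_const Real.pi
  have h3 : HasStrictFDerivAt (fun z => (lw z).1 ^ 2 + (lw z).2 ^ 2) _ z :=
    (h1.pow 2).add (h2.pow 2)
  have hne : (lw z).1 ^ 2 + (lw z).2 ^ 2 ≠ 0 := by positivity
  have h4 : HasStrictFDerivAt (fun z => rw (lw z)) _ z := h3.sqrt hne
  have h5 : HasStrictFDerivAt (fun z => gp d (rw (lw z))) _ z :=
    (hasStrictDerivAt_gp d _).comp_hasStrictFDerivAt z h4
  have h6 : HasStrictFDerivAt (fun z => up d (lw z).2) _ z :=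
    (hasStrictDerivAt_up d _).comp_hasStrictFDerivAt z h2
  have h7 : HasStrictFDerivAt (fun z => v * (gp d (rw (lw z)) * up d (lw z).2)) _ z :=
    (h5.mul h6).const_mul v
  have heq : (fun z => v * (gp d (rw (lw z)) * up d (lw z).2)) =ᶠ[𝓝 z] ph v d := by
    have : ∀ᶠ w : ℝ × ℝ in 𝓝 z, w.2 < 0 :=
      continuous_snd.continuousAt.eventually_lt continuousAt_const hz
    filter_upwards [this] with w hw
    rw [ph, if_pos hw, phW]
    ring
  refine (h7.congr_of_eventuallyEq heq).congr_fderiv ?_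
  have hrw : rw (lw z) = Real.sqrt ((lw z).1 ^ 2 + (lw z).2 ^ 2) := rfl
  have hrp : 0 < Real.sqrt ((lw z).1 ^ 2 + (lw z).2 ^ 2) := Real.sqrt_pos.2 (by positivity)
  have hn : z.1 ^ 2 + z.2 ^ 2 ≠ 0 := by
    have : 0 < z.2 ^ 2 := by nlinarith
    positivity
  have hl : lr z = (lw z).1 := rfl
  ext
  · simp [phx, phy, hrw, hl]
    field_simp
    ring
  · simp [phx, phy, hrw, hl]
    field_simp
    ring

end Vale.Agent.P159.T1.H634
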