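import Vale.Agent.P159.T1.H634.RhoPlug

/-!
The reflection bound for a symmetric region cut beyond the collar.
-/

set_option linter.all false
set_option autoImplicit false

open MeasureTheory Filter Topology
open scoped BigOperators

namespace Vale.Agent.P159.T1.H634

open Vale.Agent.P159 Vale.Agent.P159.UJ Vale.Agent.P159.H950
open Vale.Agent.P159.T1.H931 (chiI zI zI_pos Dbl op)
open Vale.Agent.P159.T1.H729 (Good SC SI cut cut2 AV mem_cut mem_cut2 AV_cm)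

theorem slow_good {r : Refl} (h : Good r) : Slow r where
  s := h.neg
  one := h.stp
  two c t t' := by
    have a1 := h.spread (c := c) (m := r.lam (hu c t)) ⟨t, Or.inl le_rfl⟩ t'
    have a2 := h.spread' (c := c) (m := r.lam (hu c t)) ⟨t, Or.inl le_rfl⟩ t'
    have a3 := h.spread (c := c) (m := r.lam (hv c t)) ⟨t, Or.inr le_rfl⟩ t'
    have a4 := h.spread' (c := c) (m := r.lam (hv c t)) ⟨t, Or.inr le_rfl⟩ t'
    simp only [abs_le]
    omega

/-- **The reflection bound for a symmetric region cut beyond the collar.** -/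
theorem rho_cut' (r : Refl) (h : Good r) {m : ℕ} (hm : 1 ≤ m) {E : Finset (ℤ × ℤ)}
    {I : Set (ℤ × ℤ)} (hE : SC r E) (hI : SI r I) {b : ℝ} (hb : 0 ≤ b) :
    zI b E I 0 * zI b (cut2 r (m + 1) E) I 0 ≤
      Real.exp (b * (cut2 r (m + 1) E).card * (Real.pi ^ 2 / (8 * m ^ 2))) *
        zI b (cut r (m + 1) E) I 0 ^ 2 :=
  rho_dbl' rhoAbs hb (slow_good h) hm (H931.dbl_cut h (by omega) hE hI)
    (fun c hc t => by
      have h1 := (mem_cut.1 hc).2 t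
      push_cast at h1
      exact h1)
    (fun c hc h1 => by
      rw [mem_cut] at hc ⊢
      refine ⟨(hE c).2 hc.1, (AV_cm r _ c).2 fun t => ?_⟩
      have h2 := h1 t
      simp only [abs_le] at h2
      show r.lam (r.s (hu c t)) ≤ ((m + 1 : ℕ) : ℤ) ∧ r.lam (r.s (hv c t)) ≤ ((m + 1 : ℕ) : ℤ)
      rw [h.neg, h.neg]
      push_cast
      omega)
    (fun v _ => hI v) (fun v _ hv => (hI v).2 hv)

/-- **The reflection bound for a symmetric region cut beyond the collar.** -/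
theorem rho_cut (r : Refl) (h : Good r) {w : ℕ} (hw : 4 ≤ w) {E : Finset (ℤ × ℤ)}
    {I : Set (ℤ × ℤ)} (hE : SC r E) (hI : SI r I) {b : ℝ} (hb : 0 ≤ b) :
    zI b E I 0 * zI b (cut2 r w E) I 0 ≤
      Real.exp (b * E.card * (Real.pi ^ 2 / (8 * ((w : ℝ) - 2) ^ 2))) *
        zI b (cut r w E) I 0 ^ 2 := by
  obtain ⟨m, rfl⟩ : ∃ m, w = m + 1 := ⟨w - 1, by omega⟩
  refine (rho_cut' r h (by omega) hE hI hb).trans ?_
  refine mul_le_mul_of_nonneg_right (Real.exp_le_exp.2 ?_) (sq_nonneg _)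
  have hm : (3 : ℝ) ≤ m := by exact_mod_cast (by omega : 3 ≤ m)
  have h1 : ((cut2 r (m + 1) E).card : ℝ) ≤ E.card := by
    have : cut2 r (m + 1) E ⊆ E := fun c hc => (mem_cut2.1 hc).1
    exact_mod_cast Finset.card_le_card this
  have h2 : Real.pi ^ 2 / (8 * (m : ℝ) ^ 2) ≤
      Real.pi ^ 2 / (8 * (((m + 1 : ℕ) : ℝ) - 2) ^ 2) := by
    refine div_le_div_of_nonneg_left (by positivity) ?_ ?_
    · push_cast
      have : 0 < (m : ℝ) + 1 - 2 := by linarith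
      positivity
    · push_cast
      have h3 : (m : ℝ) + 1 - 2 ≤ m := by linarith
      have h4 : 0 ≤ (m : ℝ) + 1 - 2 := by linarith
      have := pow_le_pow_left₀ h4 h3 2
      linarith
  exact mul_le_mul (mul_le_mul_of_nonneg_left h1 hb) h2 (by positivity) (by positivity)

/-- **Reflection bound, horizontal line `y = a`.** -/
theorem rho_H' {b : ℝ} (hb : 0 ≤ b) (a : ℤ) {w : ℕ} (hw : 1 ≤ w)
    (R : Finset (ℤ × ℤ)) (I : Set (ℤ × ℤ)) (h1 : ∀ c ∈ R, a - w ≤ c.2)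
    (h2 : ∀ c : ℤ × ℤ, a - w ≤ c.2 → c.2 < a → (c ∈ R ↔ (c.1, 2 * a - 1 - c.2) ∈ R))
    (h3 : ∀ v : ℤ × ℤ, a - w < v.2 → v.2 < a + w → (v ∈ I ↔ (v.1, 2 * a - v.2) ∈ I))
    (h4 : ∀ v : ℤ × ℤ, v.2 = a + w → v ∈ I → (v.1, a - w) ∈ I) :
    zI b ((R.filter fun c => a ≤ c.2) ∪ (R.filter fun c => a ≤ c.2).image (rH a).cm)
        (symU (rH a) I) 0 *
      zI b ((R.filter fun c => c.2 < a) ∪ (R.filter fun c => c.2 < a).image (rH a).cm)
        (symD (rH a) I) 0 ≤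
      Real.exp (b * (R.filter fun c => c.2 < a).card * (Real.pi ^ 2 / (8 * w ^ 2))) *
        zI b R I 0 ^ 2 := rho_H rhoAbs hb a hw R I h1 h2 h3 h4

/-- **Reflection bound, vertical line `x = a`.** -/
theorem rho_V' {b : ℝ} (hb : 0 ≤ b) (a : ℤ) {w : ℕ} (hw : 1 ≤ w)
    (R : Finset (ℤ × ℤ)) (I : Set (ℤ × ℤ)) (h1 : ∀ c ∈ R, a - w ≤ c.1)
    (h2 : ∀ c : ℤ × ℤ, a - w ≤ c.1 → c.1 < a → (c ∈ R ↔ (2 * a - 1 - c.1, c.2) ∈ R))
    (h3 : ∀ v : ℤ × ℤ, a - w < v.1 → v.1 < a + w → (v ∈ I ↔ (2 * a - v.1, v.2) ∈ I))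
    (h4 : ∀ v : ℤ × ℤ, v.1 = a + w → v ∈ I → (a - w, v.2) ∈ I) :
    zI b ((R.filter fun c => a ≤ c.1) ∪ (R.filter fun c => a ≤ c.1).image (rV a).cm)
        (symU (rV a) I) 0 *
      zI b ((R.filter fun c => c.1 < a) ∪ (R.filter fun c => c.1 < a).image (rV a).cm)
        (symD (rV a) I) 0 ≤
      Real.exp (b * (R.filter fun c => c.1 < a).card * (Real.pi ^ 2 / (8 * w ^ 2))) *
        zI b R I 0 ^ 2 := rho_V rhoAbs hb a hw R I h1 h2 h3 h4

end Vale.Agent.P159.T1.H634
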