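import Vale.Agent.P159.T1.H634.RhoLat
import Vale.Agent.P159.T1.H931.GlbN

/-!
The reflection bound for the doubles `Dbl` of the two sides of an arbitrary mirror line.
-/

set_option linter.all false
set_option autoImplicit false

open MeasureTheory Filter Topology
open scoped BigOperators

namespace Vale.Agent.P159.T1.H634

open Vale.Agent.P159 Vale.Agent.P159.UJ Vale.Agent.P159.H950
open Vale.Agent.P159.T1.H931 (chiI zI zI_pos Dbl op)

/-- the level function of the reflection varies slowly -/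
structure Slow (r : Refl) : Prop where
  s : ∀ v, r.lam (r.s v) = -r.lam v
  one : ∀ c t, |r.lam (hu c t) - r.lam (hv c t)| ≤ 1
  two : ∀ c t t', |r.lam (hu c t) - r.lam (hu c t')| ≤ 2 ∧ |r.lam (hu c t) - r.lam (hv c t')| ≤ 2 ∧
    |r.lam (hv c t) - r.lam (hv c t')| ≤ 2

theorem slow_V (a : ℤ) : Slow (rV a) where
  s v := by show 2 * a - v.1 - a = -(v.1 - a); ring
  one c t := by
    show |(hu c t).1 - a - ((hv c t).1 - a)| ≤ 1
    rw [abs_le]
    rcases t with ⟨_ | _, _ | _⟩ <;> simp [hu, hv]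
  two c t t' := by
    show |(hu c t).1 - a - ((hu c t').1 - a)| ≤ 2 ∧ |(hu c t).1 - a - ((hv c t').1 - a)| ≤ 2 ∧
      |(hv c t).1 - a - ((hv c t').1 - a)| ≤ 2
    simp only [abs_le]
    rcases t with ⟨_ | _, _ | _⟩ <;> rcases t' with ⟨_ | _, _ | _⟩ <;> simp [hu, hv] <;> omega

theorem slow_H (a : ℤ) : Slow (rH a) where
  s v := by show 2 * a - v.2 - a = -(v.2 - a); ring
  one c t := by
    show |(hu c t).2 - a - ((hv c t).2 - a)| ≤ 1
    rw [abs_le]
    rcases t with ⟨_ | _, _ | _⟩ <;> simp [hu, hv]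
  two c t t' := by
    show |(hu c t).2 - a - ((hu c t').2 - a)| ≤ 2 ∧ |(hu c t).2 - a - ((hv c t').2 - a)| ≤ 2 ∧
      |(hv c t).2 - a - ((hv c t').2 - a)| ≤ 2
    simp only [abs_le]
    rcases t with ⟨_ | _, _ | _⟩ <;> rcases t' with ⟨_ | _, _ | _⟩ <;> simp [hu, hv] <;> omega

theorem slow_D (a : ℤ) : Slow (rD a) where
  s v := by show v.2 + a - (v.1 - a) - a = -(v.1 - v.2 - a); ring
  one c t := by
    show |(hu c t).1 - (hu c t).2 - a - ((hv c t).1 - (hv c t).2 - a)| ≤ 1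
    rw [abs_le]
    rcases t with ⟨_ | _, _ | _⟩ <;> simp [hu, hv] <;> omega
  two c t t' := by
    show |(hu c t).1 - (hu c t).2 - a - ((hu c t').1 - (hu c t').2 - a)| ≤ 2 ∧
      |(hu c t).1 - (hu c t).2 - a - ((hv c t').1 - (hv c t').2 - a)| ≤ 2 ∧
      |(hv c t).1 - (hv c t).2 - a - ((hv c t').1 - (hv c t').2 - a)| ≤ 2
    simp only [abs_le]
    rcases t with ⟨_ | _, _ | _⟩ <;> rcases t' with ⟨_ | _, _ | _⟩ <;> simp [hu, hv] <;> omega

theorem slow_A (a : ℤ) : Slow (rA a) where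
  s v := by show a - v.2 + (a - v.1) - a = -(v.1 + v.2 - a); ring
  one c t := by
    show |(hu c t).1 + (hu c t).2 - a - ((hv c t).1 + (hv c t).2 - a)| ≤ 1
    rw [abs_le]
    rcases t with ⟨_ | _, _ | _⟩ <;> simp [hu, hv] <;> omega
  two c t t' := by
    show |(hu c t).1 + (hu c t).2 - a - ((hu c t').1 + (hu c t').2 - a)| ≤ 2 ∧
      |(hu c t).1 + (hu c t).2 - a - ((hv c t').1 + (hv c t').2 - a)| ≤ 2 ∧
      |(hv c t).1 + (hv c t).2 - a - ((hv c t').1 + (hv c t').2 - a)| ≤ 2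
    simp only [abs_le]
    rcases t with ⟨_ | _, _ | _⟩ <;> rcases t' with ⟨_ | _, _ | _⟩ <;> simp [hu, hv] <;> omega

theorem Slow.op {r : Refl} (h : Slow r) : Slow (op r) where
  s v := by
    show -r.lam (r.s v) = - -r.lam v
    rw [h.s]
  one c t := by
    show |-r.lam (hu c t) - -r.lam (hv c t)| ≤ 1
    have := h.one c t
    rw [abs_le] at this ⊢
    omega
  two c t t' := by
    show |-r.lam (hu c t) - -r.lam (hu c t')| ≤ 2 ∧ |-r.lam (hu c t) - -r.lam (hv c t')| ≤ 2 ∧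
      |-r.lam (hv c t) - -r.lam (hv c t')| ≤ 2
    have := h.two c t t'
    simp only [abs_le] at this ⊢
    omega

theorem prof_lip (r : Refl) (m : ℕ) {u v : ℤ × ℤ} (h : |r.lam u - r.lam v| ≤ 1) :
    (prof r m u - prof r m v) ^ 2 ≤ (Real.pi / (4 * m)) ^ 2 := by
  unfold prof
  rw [← mul_sub, mul_pow]
  refine mul_le_of_le_one_right (sq_nonneg _) ?_
  have h1 := abs_le.1 h
  have h2 : |max (-(m : ℤ)) (min (r.lam u) m) + m - (max (-(m : ℤ)) (min (r.lam v) m) + m)| ≤ 1 := by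
    rw [abs_le]
    omega
  have h3 : |(((max (-(m : ℤ)) (min (r.lam u) m) + m : ℤ) : ℝ) -
      ((max (-(m : ℤ)) (min (r.lam v) m) + m : ℤ) : ℝ))| ≤ 1 := by
    rw [← Int.cast_sub, ← Int.cast_abs]
    exact_mod_cast h2
  rw [← sq_abs]
  exact pow_le_one₀ (abs_nonneg _) h3

theorem cost_le {r : Refl} (hr : Slow r) {b : ℝ} (hb : 0 ≤ b) (m : ℕ) (A : Finset (ℤ × ℤ)) :
    cost b A (prof r m) ≤ b * A.card * (Real.pi ^ 2 / (8 * m ^ 2)) := by
  unfold cost
  calc ∑ c ∈ A, ∑ t : HT, b / 2 * (prof r m (hu c t) - prof r m (hv c t)) ^ 2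
      ≤ ∑ c ∈ A, ∑ t : HT, b / 2 * (Real.pi / (4 * m)) ^ 2 :=
        Finset.sum_le_sum fun c _ => Finset.sum_le_sum fun t _ =>
          mul_le_mul_of_nonneg_left (prof_lip r m (hr.one c t)) (by positivity)
    _ = b * A.card * (Real.pi ^ 2 / (8 * m ^ 2)) := by
        rw [Finset.sum_const, Finset.sum_const, nsmul_eq_mul, nsmul_eq_mul]
        have : ((Finset.univ : Finset HT).card : ℝ) = 4 := by
          rw [Finset.card_univ]
          simp only [Fintype.card_prod, Fintype.card_bool]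
          norm_num
        rw [this, div_pow, mul_pow]
        ring

/-- **The reflection bound for the doubles of the two sides**; the left side lies in the collar
`|lam| ≤ w`. -/
theorem rho_dbl (H : RhoAbs) {b : ℝ} (hb : 0 ≤ b) {r : Refl} (hr : Slow r) {m : ℕ} (hm : 1 ≤ m)
    {R RL RR : Finset (ℤ × ℤ)} {I IL IR : Set (ℤ × ℤ)} (D : Dbl r R RL RR I IL IR)
    (hR : ∀ c ∈ R, ∀ t, -(m + 1 : ℤ) ≤ r.lam (hu c t) ∧ -(m + 1 : ℤ) ≤ r.lam (hv c t))
    (hsym : ∀ c ∈ R, (∀ t, |r.lam (hu c t)| ≤ m + 1 ∧ |r.lam (hv c t)| ≤ m + 1) → r.cm c ∈ R)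
    (hI : ∀ v, |r.lam v| < m + 1 → (r.s v ∈ I ↔ v ∈ I))
    (hI' : ∀ v, r.lam v = m + 1 → v ∈ I → r.s v ∈ I) :
    zI b RL IL 0 * zI b RR IR 0 ≤
      Real.exp (b * RL.card * (Real.pi ^ 2 / (8 * m ^ 2))) * zI b R I 0 ^ 2 := by
  classical
  have hm' : (1 : ℤ) ≤ m := by exact_mod_cast hm
  set Q : ℤ × ℤ → Prop := fun c => ∀ t, |r.lam (hu c t)| ≤ m + 1 ∧ |r.lam (hv c t)| ≤ m + 1 with hQ
  set A := R.filter Q with hA
  set E := R.filter fun c => ¬ Q c with hE
  have memA : ∀ c, c ∈ A ↔ c ∈ R ∧ Q c := fun c => Finset.mem_filter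
  have memE : ∀ c, c ∈ E ↔ c ∈ R ∧ ¬ Q c := fun c => Finset.mem_filter
  have hQc : ∀ c, Q c → Q (r.cm c) := by
    intro c hc t
    have h1 := hc (r.tm t)
    rcases r.ends c (r.tm t) with ⟨_, h2, h3⟩ | ⟨_, h2, h3⟩
    · rw [r.tm_tm] at h2 h3
      rw [h2, h3, hr.s, hr.s, abs_neg, abs_neg]
      exact h1
    · rw [r.tm_tm] at h2 h3
      rw [h2, h3, hr.s, hr.s, abs_neg, abs_neg]
      exact ⟨h1.2, h1.1⟩
  have hAs' : ∀ c, c ∈ A → r.cm c ∈ A := by
    intro c hc
    rw [memA] at hc ⊢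
    exact ⟨hsym c hc.1 hc.2, hQc c hc.2⟩
  have hAs : ∀ c, r.cm c ∈ A ↔ c ∈ A := by
    intro c
    refine ⟨fun h => ?_, hAs' c⟩
    have := hAs' _ h
    rwa [r.cm_cm] at this
  -- cells with a left half-bond
  have hleft : ∀ c ∈ R, ∀ t, r.left c t → c ∈ A := by
    intro c hc t ht
    rw [memA]
    refine ⟨hc, fun u => ?_⟩
    have h1 := (r.left1 c t ht).1
    have h2 := hR c hc u
    have h3 := (hr.two c t u).1
    have h4 := (hr.two c t u).2.1
    rw [abs_le] at h3 h4 ⊢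
    rw [abs_le]
    omega
  have hEw : ∀ c ∈ E, ∀ t, (m : ℤ) ≤ r.lam (hu c t) ∧ (m : ℤ) ≤ r.lam (hv c t) := by
    intro c hc t
    rw [memE] at hc
    obtain ⟨hc1, hc2⟩ := hc
    simp only [hQ] at hc2
    push Not at hc2
    obtain ⟨u, hu'⟩ := hc2
    have h1 := hR c hc1 u
    have h2 := hr.two c u t
    have h3 := hr.two c t u
    simp only [abs_le, lt_abs] at h2 h3 hu'
    by_cases h5 : r.lam (hu c u) ≤ m + 1
    · have h6 := hu' ⟨by omega, h5⟩
      omega
    · omega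
  have key := rho_gen H hb r hr.s hm (w := m + 1) (by omega) A E I hAs
    (fun c hc t => by
      have := ((memA c).1 hc).2 t
      push_cast
      exact this)
    hEw
    (fun v hv' => hI v (by push_cast at hv'; exact hv'))
    (fun v hv' => hI' v (by push_cast at hv'; exact hv'))
    (by
      rw [Finset.disjoint_left]
      intro c h1 h2
      exact ((memE c).1 h2).2 ((memA c).1 h1).2)
  have hAE : A ∪ E = R := Finset.filter_union_filter_not_eq Q R
  have eL : RL = A := by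
    ext c
    constructor
    · intro hc
      by_cases h : ∃ t, r.left c t
      · obtain ⟨t, ht⟩ := h
        exact hleft c ((D.cl c t ht).1 hc) t ht
      · push Not at h
        have h1 := (r.left3 c (false, false)).2 (h _)
        have h2 := (D.cl _ _ h1).1 ((D.cls c).2 hc)
        exact (hAs c).1 (hleft _ h2 _ h1)
    · intro hc
      by_cases h : ∃ t, r.left c t
      · obtain ⟨t, ht⟩ := h
        exact (D.cl c t ht).2 ((memA c).1 hc).1
      · push Not at h
        have h1 := (r.left3 c (false, false)).2 (h _)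
        have h2 := ((memA _).1 ((hAs c).2 hc)).1
        exact (D.cls c).1 ((D.cl _ _ h1).2 h2)
  have eR : RR = A ∪ E ∪ E.image r.cm := by
    ext c
    constructor
    · intro hc
      by_cases h : ∃ t, ¬ r.left c t
      · obtain ⟨t, ht⟩ := h
        rw [hAE]
        exact Finset.mem_union_left _ ((D.cr c t ht).1 hc)
      · push Not at h
        have h1 : ¬ r.left (r.cm c) (r.tm (false, false)) := fun h2 =>
          (r.left3 c (false, false)).1 h2 (h _)
        have h2 := (D.cr _ _ h1).1 ((D.crs c).2 hc)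
        rw [← hAE] at h2
        rcases Finset.mem_union.1 h2 with h3 | h3
        · exact Finset.mem_union_left _ (Finset.mem_union_left _ ((hAs c).1 h3))
        · exact Finset.mem_union_right _ (Finset.mem_image.2 ⟨r.cm c, h3, r.cm_cm c⟩)
    · intro hc
      rcases Finset.mem_union.1 hc with hc | hc
      · rw [hAE] at hc
        by_cases h : ∃ t, ¬ r.left c t
        · obtain ⟨t, ht⟩ := h
          exact (D.cr c t ht).2 hc
        · push Not at h
          have h1 : ¬ r.left (r.cm c) (r.tm (false, false)) := fun h2 =>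
            (r.left3 c (false, false)).1 h2 (h _)
          have h2 := (hAs c).2 (hleft c hc (false, false) (h _))
          exact (D.crs c).1 ((D.cr _ _ h1).2 ((memA _).1 h2).1)
      · obtain ⟨d, hd, rfl⟩ := Finset.mem_image.1 hc
        have h1 := hEw d hd (false, false)
        have h2 : ¬ r.left d (false, false) := fun h3 => by
          have := (r.left1 d _ h3).1
          omega
        exact (D.crs d).2 ((D.cr d _ h2).2 ((memE d).1 hd).1)
  have hIL : ∀ v, v ∈ symD r I ↔ v ∈ IL := by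
    intro v
    simp only [symD, Set.mem_setOf_eq]
    rcases le_or_gt (r.lam v) 0 with h | h
    · rw [D.il v h]
      exact ⟨fun h1 => h1.1 h, fun h1 => ⟨fun _ => h1, fun h2 => by omega⟩⟩
    · have h3 : r.s v ∈ IL ↔ r.s v ∈ I := D.il _ (by rw [hr.s]; omega)
      rw [← D.ils v, h3]
      exact ⟨fun h1 => h1.2 h, fun h1 => ⟨fun h2 => by omega, fun _ => h1⟩⟩
  have hIR : ∀ v, v ∈ symU r I ↔ v ∈ IR := by
    intro v
    simp only [symU, Set.mem_setOf_eq]
    rcases lt_or_ge (r.lam v) 0 with h | h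
    · have h3 : r.s v ∈ IR ↔ r.s v ∈ I := D.ir _ (by rw [hr.s]; omega)
      rw [← D.irs v, h3]
      exact ⟨fun h1 => h1.2 h, fun h1 => ⟨fun h2 => by omega, fun _ => h1⟩⟩
    · rw [D.ir v h]
      exact ⟨fun h1 => h1.1 h, fun h1 => ⟨fun _ => h1, fun h2 => by omega⟩⟩
  have z1 : zI b RL IL 0 = zI b A (symD r I) 0 := by
    rw [eL]
    exact zI_congr b fun c _ t => ⟨(hIL _).symm, (hIL _).symm⟩
  have z2 : zI b RR IR 0 = zI b (A ∪ E ∪ E.image r.cm) (symU r I) 0 := by
    rw [eR]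
    exact zI_congr b fun c _ t => ⟨(hIR _).symm, (hIR _).symm⟩
  rw [z1, z2, mul_comm, eL]
  refine key.trans ?_
  rw [hAE]
  exact mul_le_mul_of_nonneg_right (Real.exp_le_exp.2 (cost_le hr hb m A)) (sq_nonneg _)

/-- the same when the right side lies in the collar -/
theorem rho_dbl' (H : RhoAbs) {b : ℝ} (hb : 0 ≤ b) {r : Refl} (hr : Slow r) {m : ℕ} (hm : 1 ≤ m)
    {R RL RR : Finset (ℤ × ℤ)} {I IL IR : Set (ℤ × ℤ)} (D : Dbl r R RL RR I IL IR)
    (hR : ∀ c ∈ R, ∀ t, r.lam (hu c t) ≤ m + 1 ∧ r.lam (hv c t) ≤ m + 1)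
    (hsym : ∀ c ∈ R, (∀ t, |r.lam (hu c t)| ≤ m + 1 ∧ |r.lam (hv c t)| ≤ m + 1) → r.cm c ∈ R)
    (hI : ∀ v, |r.lam v| < m + 1 → (r.s v ∈ I ↔ v ∈ I))
    (hI' : ∀ v, r.lam v = -(m + 1 : ℤ) → v ∈ I → r.s v ∈ I) :
    zI b RL IL 0 * zI b RR IR 0 ≤
      Real.exp (b * RR.card * (Real.pi ^ 2 / (8 * m ^ 2))) * zI b R I 0 ^ 2 := by
  rw [mul_comm (zI b RL IL 0)]
  exact rho_dbl H hb hr.op hm D.op
    (fun c hc t => by
      show -(m + 1 : ℤ) ≤ -r.lam (hu c t) ∧ -(m + 1 : ℤ) ≤ -r.lam (hv c t)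
      have := hR c hc t
      omega)
    (fun c hc h => hsym c hc fun t => by
      have h1 : |-r.lam (hu c t)| ≤ m + 1 ∧ |-r.lam (hv c t)| ≤ m + 1 := h t
      rwa [abs_neg, abs_neg] at h1)
    (fun v hv' => hI v (by
      have h1 : |-r.lam v| < m + 1 := hv'
      rwa [abs_neg] at h1))
    (fun v hv' => hI' v (by
      have h1 : -r.lam v = m + 1 := hv'
      omega))

end Vale.Agent.P159.T1.H634
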