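import Vale.Agent.P159.T1.H634.RhoLat

/-!
The bound of `Z_ll * Z_rr / Z_lr ^ 2` for the reflections in horizontal and vertical lines.
-/

set_option linter.all false
set_option autoImplicit false

open MeasureTheory Filter Topology
open scoped BigOperators

namespace Vale.Agent.P159.T1.H634

open Vale.Agent.P159 Vale.Agent.P159.UJ Vale.Agent.P159.H950
open Vale.Agent.P159.T1.H931 (chiI zI zI_pos)

/-- **Reflection bound, horizontal line `y = a`.** -/
theorem rho_H (H : RhoAbs) {b : ℝ} (hb : 0 ≤ b) (a : ℤ) {w : ℕ} (hw : 1 ≤ w)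
    (R : Finset (ℤ × ℤ)) (I : Set (ℤ × ℤ)) (h1 : ∀ c ∈ R, a - w ≤ c.2)
    (h2 : ∀ c : ℤ × ℤ, a - w ≤ c.2 → c.2 < a → (c ∈ R ↔ (c.1, 2 * a - 1 - c.2) ∈ R))
    (h3 : ∀ v : ℤ × ℤ, a - w < v.2 → v.2 < a + w → (v ∈ I ↔ (v.1, 2 * a - v.2) ∈ I))
    (h4 : ∀ v : ℤ × ℤ, v.2 = a + w → v ∈ I → (v.1, a - w) ∈ I) :
    zI b ((R.filter fun c => a ≤ c.2) ∪ (R.filter fun c => a ≤ c.2).image (rH a).cm)
        (symU (rH a) I) 0 *
      zI b ((R.filter fun c => c.2 < a) ∪ (R.filter fun c => c.2 < a).image (rH a).cm)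
        (symD (rH a) I) 0 ≤
      Real.exp (b * (R.filter fun c => c.2 < a).card * (Real.pi ^ 2 / (8 * w ^ 2))) *
        zI b R I 0 ^ 2 := by
  classical
  set A := R.filter fun c => c.2 < a + w with hA
  set E := R.filter fun c => a + w ≤ c.2 with hE
  have hcm : ∀ c, (rH a).cm c = (c.1, 2 * a - 1 - c.2) := fun c => rfl
  have hsymR : ∀ c : ℤ × ℤ, a - w ≤ c.2 → c.2 < a + w → ((rH a).cm c ∈ R ↔ c ∈ R) := by
    intro c hc1 hc2
    rw [hcm]
    rcases lt_or_ge c.2 a with h | h
    · exact (h2 c hc1 h).symm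
    · have := h2 (c.1, 2 * a - 1 - c.2) (by simp only; omega) (by simp only; omega)
      rw [this]
      have e : ((c.1, 2 * a - 1 - (2 * a - 1 - c.2)) : ℤ × ℤ) = c := by
        ext <;> simp
      simp only [e]
  have hAs : ∀ c, (rH a).cm c ∈ A ↔ c ∈ A := by
    intro c
    simp only [hA, Finset.mem_filter]
    constructor
    · rintro ⟨h5, h6⟩
      have h7 := h1 _ h5
      rw [hcm] at h6 h7
      simp only at h6 h7
      exact ⟨(hsymR c (by omega) (by omega)).1 h5, by omega⟩
    · rintro ⟨h5, h6⟩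
      have h7 := h1 _ h5
      refine ⟨(hsymR c (by omega) (by omega)).2 h5, ?_⟩
      rw [hcm]
      simp only
      omega
  have key := rho_refl H hb (rH a) (fun v => by show 2 * a - v.2 - a = -(v.2 - a); ring) hw A E I
    hAs
    (fun c hc t => by
      have h5 := h1 c (Finset.mem_filter.1 hc).1
      have h6 := (Finset.mem_filter.1 hc).2
      show |(hu c t).2 - a| ≤ w ∧ |(hv c t).2 - a| ≤ w
      rw [abs_le, abs_le]
      rcases t with ⟨_ | _, _ | _⟩ <;> simp [hu, hv] <;> omega)
    (fun c hc t => by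
      have h6 := (Finset.mem_filter.1 hc).2
      show (w : ℤ) ≤ (hu c t).2 - a ∧ (w : ℤ) ≤ (hv c t).2 - a
      rcases t with ⟨_ | _, _ | _⟩ <;> simp [hu, hv] <;> omega)
    (fun v hv' => by
      have h5 := abs_lt.1 hv'
      have h6 : (rH a).lam v = v.2 - a := rfl
      rw [h6] at h5
      exact (h3 v (by omega) (by omega)).symm)
    (fun v hv' hvI => by
      have h6 : (rH a).lam v = v.2 - a := rfl
      rw [h6] at hv'
      have h7 := h4 v (by omega) hvI
      have e : (rH a).s v = (v.1, a - w) := by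
        show (v.1, 2 * a - v.2) = _
        ext
        · rfl
        · simp only; omega
      rwa [e])
    (by
      rw [Finset.disjoint_left]
      intro c hc hc'
      have h5 := (Finset.mem_filter.1 hc).2
      have h6 := (Finset.mem_filter.1 hc').2
      omega)
  have e1 : (R.filter fun c => a ≤ c.2) ∪ (R.filter fun c => a ≤ c.2).image (rH a).cm =
      A ∪ E ∪ E.image (rH a).cm := by
    ext c
    simp only [Finset.mem_union, Finset.mem_filter, Finset.mem_image, hA, hE]
    constructor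
    · rintro (⟨h5, h6⟩ | ⟨d, ⟨h5, h6⟩, rfl⟩)
      · left
        rcases lt_or_ge c.2 (a + w) with h7 | h7
        · exact Or.inl ⟨h5, h7⟩
        · exact Or.inr ⟨h5, h7⟩
      · rcases lt_or_ge d.2 (a + w) with h7 | h7
        · left; left
          exact ⟨(hsymR d (by omega) h7).2 h5, by rw [hcm]; simp only; omega⟩
        · right
          exact ⟨d, ⟨h5, h7⟩, rfl⟩
    · rintro ((⟨h5, h6⟩ | ⟨h5, h6⟩) | ⟨d, ⟨h5, h6⟩, rfl⟩)
      · rcases lt_or_ge c.2 a with h7 | h7
        · right
          have h8 := h1 c h5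
          refine ⟨(rH a).cm c, ⟨(hsymR c h8 h6).2 h5, by rw [hcm]; simp only; omega⟩,
            (rH a).cm_cm c⟩
        · exact Or.inl ⟨h5, h7⟩
      · exact Or.inl ⟨h5, by omega⟩
      · exact Or.inr ⟨d, ⟨h5, by omega⟩, rfl⟩
  have e2 : (R.filter fun c => c.2 < a) ∪ (R.filter fun c => c.2 < a).image (rH a).cm = A := by
    ext c
    simp only [Finset.mem_union, Finset.mem_filter, Finset.mem_image, hA]
    constructor
    · rintro (⟨h5, h6⟩ | ⟨d, ⟨h5, h6⟩, rfl⟩)
      · exact ⟨h5, by omega⟩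
      · have h8 := h1 d h5
        exact ⟨(hsymR d h8 (by omega)).2 h5, by rw [hcm]; simp only; omega⟩
    · rintro ⟨h5, h6⟩
      have h8 := h1 c h5
      rcases lt_or_ge c.2 a with h7 | h7
      · exact Or.inl ⟨h5, h7⟩
      · right
        exact ⟨(rH a).cm c, ⟨(hsymR c h8 h6).2 h5, by rw [hcm]; simp only; omega⟩,
            (rH a).cm_cm c⟩
  have e3 : A ∪ E = R := by
    ext c
    simp only [Finset.mem_union, Finset.mem_filter, hA, hE]
    constructor
    · rintro (⟨h5, _⟩ | ⟨h5, _⟩) <;> exact h5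
    · intro h5
      rcases lt_or_ge c.2 (a + w) with h7 | h7
      · exact Or.inl ⟨h5, h7⟩
      · exact Or.inr ⟨h5, h7⟩
  have hcard : A.card = 2 * (R.filter fun c => c.2 < a).card := by
    have hinj : Function.Injective (rH a).cm := fun c d h => by
      rw [← (rH a).cm_cm c, h, (rH a).cm_cm]
    rw [← e2, Finset.card_union_of_disjoint, Finset.card_image_of_injective _ hinj, two_mul]
    rw [Finset.disjoint_left]
    intro c hc hc'
    obtain ⟨d, hd, rfl⟩ := Finset.mem_image.1 hc'
    have h5 := (Finset.mem_filter.1 hd).2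
    have h6 := (Finset.mem_filter.1 hc).2
    rw [hcm] at h6
    simp only at h6
    omega
  have hcost : cost b A (prof (rH a) w) =
      b * (R.filter fun c => c.2 < a).card * (Real.pi ^ 2 / (8 * w ^ 2)) := by
    rw [cost_prof]
    · have h5 : ∀ c ∈ A, ∑ t : HT, (((rH a).lam (hv c t) - (rH a).lam (hu c t) : ℤ) : ℝ) ^ 2 = 2 := by
        intro c _
        rw [Fintype.sum_prod_type]
        simp only [Fintype.sum_bool]
        simp [rH, hu, hv]
        norm_num
      rw [Finset.sum_congr rfl h5, Finset.sum_const, hcard, nsmul_eq_mul]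
      push_cast
      have hw' : (0 : ℝ) < w := by exact_mod_cast hw
      field_simp
      ring
    · intro c hc t
      have h5 := h1 c (Finset.mem_filter.1 hc).1
      have h6 := (Finset.mem_filter.1 hc).2
      show |(hu c t).2 - a| ≤ w ∧ |(hv c t).2 - a| ≤ w
      rw [abs_le, abs_le]
      rcases t with ⟨_ | _, _ | _⟩ <;> simp [hu, hv] <;> omega
  rw [e1, e2, ← hcost, e3]
  rw [e3] at key
  exact key

/-- **Reflection bound, vertical line `x = a`.** -/
theorem rho_V (H : RhoAbs) {b : ℝ} (hb : 0 ≤ b) (a : ℤ) {w : ℕ} (hw : 1 ≤ w)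
    (R : Finset (ℤ × ℤ)) (I : Set (ℤ × ℤ)) (h1 : ∀ c ∈ R, a - w ≤ c.1)
    (h2 : ∀ c : ℤ × ℤ, a - w ≤ c.1 → c.1 < a → (c ∈ R ↔ (2 * a - 1 - c.1, c.2) ∈ R))
    (h3 : ∀ v : ℤ × ℤ, a - w < v.1 → v.1 < a + w → (v ∈ I ↔ (2 * a - v.1, v.2) ∈ I))
    (h4 : ∀ v : ℤ × ℤ, v.1 = a + w → v ∈ I → (a - w, v.2) ∈ I) :
    zI b ((R.filter fun c => a ≤ c.1) ∪ (R.filter fun c => a ≤ c.1).image (rV a).cm)
        (symU (rV a) I) 0 *
      zI b ((R.filter fun c => c.1 < a) ∪ (R.filter fun c => c.1 < a).image (rV a).cm)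
        (symD (rV a) I) 0 ≤
      Real.exp (b * (R.filter fun c => c.1 < a).card * (Real.pi ^ 2 / (8 * w ^ 2))) *
        zI b R I 0 ^ 2 := by
  classical
  set A := R.filter fun c => c.1 < a + w with hA
  set E := R.filter fun c => a + w ≤ c.1 with hE
  have hcm : ∀ c, (rV a).cm c = (2 * a - 1 - c.1, c.2) := fun c => rfl
  have hsymR : ∀ c : ℤ × ℤ, a - w ≤ c.1 → c.1 < a + w → ((rV a).cm c ∈ R ↔ c ∈ R) := by
    intro c hc1 hc2
    rw [hcm]
    rcases lt_or_ge c.1 a with h | h
    · exact (h2 c hc1 h).symm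
    · have := h2 (2 * a - 1 - c.1, c.2) (by simp only; omega) (by simp only; omega)
      rw [this]
      have e : ((2 * a - 1 - (2 * a - 1 - c.1), c.2) : ℤ × ℤ) = c := by
        ext <;> simp
      simp only [e]
  have hAs : ∀ c, (rV a).cm c ∈ A ↔ c ∈ A := by
    intro c
    simp only [hA, Finset.mem_filter]
    constructor
    · rintro ⟨h5, h6⟩
      have h7 := h1 _ h5
      rw [hcm] at h6 h7
      simp only at h6 h7
      exact ⟨(hsymR c (by omega) (by omega)).1 h5, by omega⟩
    · rintro ⟨h5, h6⟩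
      have h7 := h1 _ h5
      refine ⟨(hsymR c (by omega) (by omega)).2 h5, ?_⟩
      rw [hcm]
      simp only
      omega
  have key := rho_refl H hb (rV a) (fun v => by show 2 * a - v.1 - a = -(v.1 - a); ring) hw A E I
    hAs
    (fun c hc t => by
      have h5 := h1 c (Finset.mem_filter.1 hc).1
      have h6 := (Finset.mem_filter.1 hc).2
      show |(hu c t).1 - a| ≤ w ∧ |(hv c t).1 - a| ≤ w
      rw [abs_le, abs_le]
      rcases t with ⟨_ | _, _ | _⟩ <;> simp [hu, hv] <;> omega)
    (fun c hc t => by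
      have h6 := (Finset.mem_filter.1 hc).2
      show (w : ℤ) ≤ (hu c t).1 - a ∧ (w : ℤ) ≤ (hv c t).1 - a
      rcases t with ⟨_ | _, _ | _⟩ <;> simp [hu, hv] <;> omega)
    (fun v hv' => by
      have h5 := abs_lt.1 hv'
      have h6 : (rV a).lam v = v.1 - a := rfl
      rw [h6] at h5
      exact (h3 v (by omega) (by omega)).symm)
    (fun v hv' hvI => by
      have h6 : (rV a).lam v = v.1 - a := rfl
      rw [h6] at hv'
      have h7 := h4 v (by omega) hvI
      have e : (rV a).s v = (a - w, v.2) := by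
        show (2 * a - v.1, v.2) = _
        ext
        · simp only; omega
        · rfl
      rwa [e])
    (by
      rw [Finset.disjoint_left]
      intro c hc hc'
      have h5 := (Finset.mem_filter.1 hc).2
      have h6 := (Finset.mem_filter.1 hc').2
      omega)
  have e1 : (R.filter fun c => a ≤ c.1) ∪ (R.filter fun c => a ≤ c.1).image (rV a).cm =
      A ∪ E ∪ E.image (rV a).cm := by
    ext c
    simp only [Finset.mem_union, Finset.mem_filter, Finset.mem_image, hA, hE]
    constructor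
    · rintro (⟨h5, h6⟩ | ⟨d, ⟨h5, h6⟩, rfl⟩)
      · left
        rcases lt_or_ge c.1 (a + w) with h7 | h7
        · exact Or.inl ⟨h5, h7⟩
        · exact Or.inr ⟨h5, h7⟩
      · rcases lt_or_ge d.1 (a + w) with h7 | h7
        · left; left
          exact ⟨(hsymR d (by omega) h7).2 h5, by rw [hcm]; simp only; omega⟩
        · right
          exact ⟨d, ⟨h5, h7⟩, rfl⟩
    · rintro ((⟨h5, h6⟩ | ⟨h5, h6⟩) | ⟨d, ⟨h5, h6⟩, rfl⟩)
      · rcases lt_or_ge c.1 a with h7 | h7
        · right
          have h8 := h1 c h5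
          refine ⟨(rV a).cm c, ⟨(hsymR c h8 h6).2 h5, by rw [hcm]; simp only; omega⟩,
            (rV a).cm_cm c⟩
        · exact Or.inl ⟨h5, h7⟩
      · exact Or.inl ⟨h5, by omega⟩
      · exact Or.inr ⟨d, ⟨h5, by omega⟩, rfl⟩
  have e2 : (R.filter fun c => c.1 < a) ∪ (R.filter fun c => c.1 < a).image (rV a).cm = A := by
    ext c
    simp only [Finset.mem_union, Finset.mem_filter, Finset.mem_image, hA]
    constructor
    · rintro (⟨h5, h6⟩ | ⟨d, ⟨h5, h6⟩, rfl⟩)
      · exact ⟨h5, by omega⟩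
      · have h8 := h1 d h5
        exact ⟨(hsymR d h8 (by omega)).2 h5, by rw [hcm]; simp only; omega⟩
    · rintro ⟨h5, h6⟩
      have h8 := h1 c h5
      rcases lt_or_ge c.1 a with h7 | h7
      · exact Or.inl ⟨h5, h7⟩
      · right
        exact ⟨(rV a).cm c, ⟨(hsymR c h8 h6).2 h5, by rw [hcm]; simp only; omega⟩,
            (rV a).cm_cm c⟩
  have e3 : A ∪ E = R := by
    ext c
    simp only [Finset.mem_union, Finset.mem_filter, hA, hE]
    constructor
    · rintro (⟨h5, _⟩ | ⟨h5, _⟩) <;> exact h5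
    · intro h5
      rcases lt_or_ge c.1 (a + w) with h7 | h7
      · exact Or.inl ⟨h5, h7⟩
      · exact Or.inr ⟨h5, h7⟩
  have hcard : A.card = 2 * (R.filter fun c => c.1 < a).card := by
    have hinj : Function.Injective (rV a).cm := fun c d h => by
      rw [← (rV a).cm_cm c, h, (rV a).cm_cm]
    rw [← e2, Finset.card_union_of_disjoint, Finset.card_image_of_injective _ hinj, two_mul]
    rw [Finset.disjoint_left]
    intro c hc hc'
    obtain ⟨d, hd, rfl⟩ := Finset.mem_image.1 hc'
    have h5 := (Finset.mem_filter.1 hd).2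
    have h6 := (Finset.mem_filter.1 hc).2
    rw [hcm] at h6
    simp only at h6
    omega
  have hcost : cost b A (prof (rV a) w) =
      b * (R.filter fun c => c.1 < a).card * (Real.pi ^ 2 / (8 * w ^ 2)) := by
    rw [cost_prof]
    · have h5 : ∀ c ∈ A, ∑ t : HT, (((rV a).lam (hv c t) - (rV a).lam (hu c t) : ℤ) : ℝ) ^ 2 = 2 := by
        intro c _
        rw [Fintype.sum_prod_type]
        simp only [Fintype.sum_bool]
        simp [rV, hu, hv]
        norm_num
      rw [Finset.sum_congr rfl h5, Finset.sum_const, hcard, nsmul_eq_mul]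
      push_cast
      have hw' : (0 : ℝ) < w := by exact_mod_cast hw
      field_simp
      ring
    · intro c hc t
      have h5 := h1 c (Finset.mem_filter.1 hc).1
      have h6 := (Finset.mem_filter.1 hc).2
      show |(hu c t).1 - a| ≤ w ∧ |(hv c t).1 - a| ≤ w
      rw [abs_le, abs_le]
      rcases t with ⟨_ | _, _ | _⟩ <;> simp [hu, hv] <;> omega
  rw [e1, e2, ← hcost, e3]
  rw [e3] at key
  exact key

end Vale.Agent.P159.T1.H634
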