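import Vale.Agent.P159.T1.H634.Dm

/-!
Lattice form of the bound of `Z_ll * Z_rr / Z_lr ^ 2`.
-/

set_option linter.all false
set_option autoImplicit false

open MeasureTheory Filter Topology
open scoped BigOperators

namespace Vale.Agent.P159.T1.H634

open Vale.Agent.P159 Vale.Agent.P159.UJ Vale.Agent.P159.H950
open Vale.Agent.P159.T1.H931 (chiI zI zI_pos)

/-- energy of the profile `T` on the cells of `A` -/
noncomputable def cost (b : ℝ) (A : Finset (ℤ × ℤ)) (T : ℤ × ℤ → ℝ) : ℝ :=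
  ∑ c ∈ A, ∑ t : HT, b / 2 * (T (hu c t) - T (hv c t)) ^ 2

/-- the abstract bound -/
def RhoAbs : Prop := ∀ b : ℝ, 0 ≤ b → ∀ (A E E' : Finset (ℤ × ℤ)) (I0 U U' I I' K K' : Set (ℤ × ℤ))
  (T : ℤ × ℤ → ℝ), Disjoint A E → Disjoint A E' → Disjoint E E' →
  (∀ c ∈ E, ∀ t, hu c t ∈ U ∧ hv c t ∈ U) → (∀ c ∈ E', ∀ t, hu c t ∈ U' ∧ hv c t ∈ U') →
  Disjoint U U' → Disjoint I0 U → Disjoint I0 U' → I ⊆ K → K ⊆ U → I' ⊆ K' → K' ⊆ U' →
  (∀ v, 0 ≤ T v) → (∀ v, T v ≤ Real.pi / 2) → (∀ v ∈ U, T v = Real.pi / 2) →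
  (∀ v ∈ U', T v = 0) →
  zI b (A ∪ E ∪ E') (I0 ∪ I ∪ I') 0 * zI b A (I0 ∪ K ∪ K') 0 ≤
    Real.exp (cost b A T) *
      (zI b (A ∪ E) (I0 ∪ I ∪ K') 0 * zI b (A ∪ E') (I0 ∪ K ∪ I') 0)

section

variable (r : Refl)

/-- free spins of the doubled right side -/
def symU (I : Set (ℤ × ℤ)) : Set (ℤ × ℤ) :=
  {v | (0 ≤ r.lam v → v ∈ I) ∧ (r.lam v < 0 → r.s v ∈ I)}

/-- free spins of the doubled left side -/
def symD (I : Set (ℤ × ℤ)) : Set (ℤ × ℤ) :=
  {v | (r.lam v ≤ 0 → v ∈ I) ∧ (0 < r.lam v → r.s v ∈ I)}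

/-- the profile -/
noncomputable def prof (w : ℕ) (v : ℤ × ℤ) : ℝ :=
  Real.pi / (4 * w) * ((max (-(w : ℤ)) (min (r.lam v) w) + w : ℤ) : ℝ)

theorem prof_mem {w : ℕ} {v : ℤ × ℤ} (h : |r.lam v| ≤ w) :
    prof r w v = Real.pi / (4 * w) * ((r.lam v + w : ℤ) : ℝ) := by
  unfold prof
  congr 2
  have := abs_le.1 h
  omega

theorem prof_nonneg (w : ℕ) (v : ℤ × ℤ) : 0 ≤ prof r w v := by
  unfold prof
  refine mul_nonneg (by positivity) ?_
  have : 0 ≤ max (-(w : ℤ)) (min (r.lam v) w) + w := by omega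
  exact_mod_cast this

theorem prof_le {w : ℕ} (hw : 1 ≤ w) (v : ℤ × ℤ) : prof r w v ≤ Real.pi / 2 := by
  unfold prof
  have h0 : max (-(w : ℤ)) (min (r.lam v) w) + w ≤ 2 * w := by omega
  have h : ((max (-(w : ℤ)) (min (r.lam v) w) + w : ℤ) : ℝ) ≤ 2 * w := by exact_mod_cast h0
  have hw' : (0 : ℝ) < w := by exact_mod_cast hw
  calc _ ≤ Real.pi / (4 * w) * (2 * w) :=
        mul_le_mul_of_nonneg_left h (by positivity)
    _ = Real.pi / 2 := by field_simp; norm_num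

theorem prof_top {w : ℕ} (hw : 1 ≤ w) {v : ℤ × ℤ} (h : (w : ℤ) ≤ r.lam v) :
    prof r w v = Real.pi / 2 := by
  unfold prof
  have h0 : max (-(w : ℤ)) (min (r.lam v) w) + w = 2 * w := by omega
  rw [h0]
  have hw' : (0 : ℝ) < w := by exact_mod_cast hw
  push_cast
  field_simp
  norm_num

theorem prof_bot {w : ℕ} {v : ℤ × ℤ} (h : r.lam v ≤ -(w : ℤ)) : prof r w v = 0 := by
  unfold prof
  have h0 : max (-(w : ℤ)) (min (r.lam v) w) + w = 0 := by omega
  rw [h0]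
  simp

theorem cost_prof (b : ℝ) (w : ℕ) (A : Finset (ℤ × ℤ))
    (hA : ∀ c ∈ A, ∀ t, |r.lam (hu c t)| ≤ w ∧ |r.lam (hv c t)| ≤ w) :
    cost b A (prof r w) = b * Real.pi ^ 2 / (32 * w ^ 2) *
      ∑ c ∈ A, ∑ t : HT, ((r.lam (hv c t) - r.lam (hu c t) : ℤ) : ℝ) ^ 2 := by
  unfold cost
  rw [Finset.mul_sum]
  refine Finset.sum_congr rfl fun c hc => ?_
  rw [Finset.mul_sum]
  refine Finset.sum_congr rfl fun t _ => ?_
  rw [prof_mem r (hA c hc t).1, prof_mem r (hA c hc t).2]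
  push_cast
  rcases Nat.eq_zero_or_pos w with rfl | hw
  · simp
  · have hw' : (0 : ℝ) < w := by exact_mod_cast hw
    field_simp
    ring

end

/-- **The reflection bound, general form**: the profile varies in the collar of half width `m`. -/
theorem rho_gen (H : RhoAbs) {b : ℝ} (hb : 0 ≤ b) (r : Refl)
    (hs : ∀ v, r.lam (r.s v) = -r.lam v) {m w : ℕ} (hm : 1 ≤ m) (hmw : m ≤ w)
    (A E : Finset (ℤ × ℤ))
    (I : Set (ℤ × ℤ)) (hA : ∀ c, r.cm c ∈ A ↔ c ∈ A)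
    (hAw : ∀ c ∈ A, ∀ t, |r.lam (hu c t)| ≤ w ∧ |r.lam (hv c t)| ≤ w)
    (hEw : ∀ c ∈ E, ∀ t, (m : ℤ) ≤ r.lam (hu c t) ∧ (m : ℤ) ≤ r.lam (hv c t))
    (hI : ∀ v, |r.lam v| < w → (r.s v ∈ I ↔ v ∈ I))
    (hI' : ∀ v, r.lam v = w → v ∈ I → r.s v ∈ I) (hAE : Disjoint A E) :
    zI b (A ∪ E ∪ E.image r.cm) (symU r I) 0 * zI b A (symD r I) 0 ≤
      Real.exp (cost b A (prof r m)) * zI b (A ∪ E) I 0 ^ 2 := by
  classical
  have hw' : (1 : ℤ) ≤ m := by exact_mod_cast hm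
  have hmw' : (m : ℤ) ≤ w := by exact_mod_cast hmw
  set I0 : Set (ℤ × ℤ) := {v | v ∈ I ∧ |r.lam v| < m} with hI0
  set U : Set (ℤ × ℤ) := {v | (m : ℤ) ≤ r.lam v} with hU
  set U' : Set (ℤ × ℤ) := {v | r.lam v ≤ -(m : ℤ)} with hU'
  set Iu : Set (ℤ × ℤ) := {v | v ∈ I ∧ (m : ℤ) ≤ r.lam v} with hIu
  set Id : Set (ℤ × ℤ) := {v | r.s v ∈ I ∧ r.lam v ≤ -(m : ℤ)} with hId
  set K : Set (ℤ × ℤ) := {v | (m : ℤ) ≤ r.lam v ∧ (r.lam v ≤ w → r.s v ∈ I)} with hK
  set K' : Set (ℤ × ℤ) := {v | r.lam v ≤ -(m : ℤ) ∧ (-(w : ℤ) ≤ r.lam v → v ∈ I)} with hK'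
  have hsI : ∀ v, r.lam v ≤ w → -(w : ℤ) < r.lam v → v ∈ I → r.s v ∈ I := by
    intro v h1 h2 h3
    rcases h1.lt_or_eq with h4 | h4
    · exact (hI v (abs_lt.2 ⟨h2, h4⟩)).2 h3
    · exact hI' v h4 h3
  have hEi : ∀ c ∈ E.image r.cm, ∀ t, r.lam (hu c t) ≤ -(m : ℤ) ∧ r.lam (hv c t) ≤ -(m : ℤ) := by
    intro c hc t
    obtain ⟨d, hd, rfl⟩ := Finset.mem_image.1 hc
    have h1 := hEw d hd (r.tm t)
    rcases r.ends d (r.tm t) with ⟨_, h2, h3⟩ | ⟨_, h2, h3⟩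
    · rw [r.tm_tm] at h2 h3
      rw [h2, h3, hs, hs]
      omega
    · rw [r.tm_tm] at h2 h3
      rw [h2, h3, hs, hs]
      omega
  have key := H b hb A E (E.image r.cm) I0 U U' Iu Id K K' (prof r m) hAE
    (by
      rw [Finset.disjoint_left]
      intro c hc hc'
      obtain ⟨d, hd, rfl⟩ := Finset.mem_image.1 hc'
      exact Finset.disjoint_left.1 hAE ((hA d).1 hc) hd)
    (by
      rw [Finset.disjoint_left]
      intro c hc hc'
      have h1 := (hEw c hc (false, false)).1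
      have h2 := (hEi c hc' (false, false)).1
      omega)
    (fun c hc t => hEw c hc t) (fun c hc t => hEi c hc t)
    (by
      rw [Set.disjoint_left]
      intro v h1 h2
      simp only [hU, hU', Set.mem_setOf_eq] at h1 h2
      omega)
    (by
      rw [Set.disjoint_left]
      rintro v ⟨_, h1⟩ h2
      simp only [hU, Set.mem_setOf_eq] at h2
      have := abs_lt.1 h1
      omega)
    (by
      rw [Set.disjoint_left]
      rintro v ⟨_, h1⟩ h2
      simp only [hU', Set.mem_setOf_eq] at h2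
      have := abs_lt.1 h1
      omega)
    (by
      rintro v ⟨h1, h2⟩
      exact ⟨h2, fun h3 => hsI v h3 (by omega) h1⟩)
    (fun v h => h.1)
    (by
      rintro v ⟨h1, h2⟩
      refine ⟨h2, fun h3 => ?_⟩
      have h4 := hsI (r.s v) (by rw [hs]; omega) (by rw [hs]; omega) h1
      rwa [r.s_s] at h4)
    (fun v h => h.1)
    (prof_nonneg r m) (prof_le r hm) (fun v h => prof_top r hm h) (fun v h => prof_bot r h)
  have e1 : I0 ∪ Iu ∪ Id = symU r I := by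
    ext v
    simp only [hI0, hIu, hId, Set.mem_union, Set.mem_setOf_eq, symU]
    rcases lt_or_ge (|r.lam v|) m with h | h
    · have h2 := abs_lt.1 h
      have h3 := hI v (by omega)
      constructor
      · rintro ((⟨h4, _⟩ | ⟨_, h4⟩) | ⟨_, h4⟩)
        · exact ⟨fun _ => h4, fun _ => h3.2 h4⟩
        · omega
        · omega
      · rintro ⟨h4, h5⟩
        left; left
        refine ⟨?_, h⟩
        rcases le_or_gt 0 (r.lam v) with h6 | h6
        · exact h4 h6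
        · exact h3.1 (h5 h6)
    · rcases abs_cases (r.lam v) with ⟨h2, h3⟩ | ⟨h2, h3⟩
      · constructor
        · rintro ((⟨h4, _⟩ | ⟨h4, _⟩) | ⟨_, h4⟩)
          · exact ⟨fun _ => h4, fun _ => by omega⟩
          · exact ⟨fun _ => h4, fun _ => by omega⟩
          · omega
        · rintro ⟨h4, h5⟩
          left; right
          exact ⟨h4 h3, by omega⟩
      · constructor
        · rintro ((⟨_, h4⟩ | ⟨_, h4⟩) | ⟨h4, _⟩)
          · omega
          · omega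
          · exact ⟨fun _ => by omega, fun _ => h4⟩
        · rintro ⟨h4, h5⟩
          right
          exact ⟨h5 h3, by omega⟩
  have e2 : zI b A (I0 ∪ K ∪ K') 0 = zI b A (symD r I) 0 := by
    have hv' : ∀ v, |r.lam v| ≤ w → (v ∈ I0 ∪ K ∪ K' ↔ v ∈ symD r I) := by
      intro v hv
      simp only [hI0, hK, hK', Set.mem_union, Set.mem_setOf_eq, symD]
      have h1 := abs_le.1 hv
      rcases lt_or_ge (|r.lam v|) m with h | h
      · have h2 := abs_lt.1 h
        have h3 := hI v (by omega)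
        constructor
        · rintro ((⟨h4, _⟩ | ⟨h4, _⟩) | ⟨h4, _⟩)
          · exact ⟨fun _ => h4, fun _ => h3.2 h4⟩
          · omega
          · omega
        · rintro ⟨h4, h5⟩
          left; left
          refine ⟨?_, h⟩
          rcases le_or_gt (r.lam v) 0 with h6 | h6
          · exact h4 h6
          · exact h3.1 (h5 h6)
      · rcases abs_cases (r.lam v) with ⟨h2, h3⟩ | ⟨h2, h3⟩
        · constructor
          · rintro ((⟨_, h4⟩ | ⟨_, h4⟩) | ⟨h4, _⟩)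
            · omega
            · exact ⟨fun _ => by omega, fun _ => h4 h1.2⟩
            · omega
          · rintro ⟨_, h4⟩
            left; right
            exact ⟨by omega, fun _ => h4 (by omega)⟩
        · constructor
          · rintro ((⟨_, h4⟩ | ⟨h4, _⟩) | ⟨_, h4⟩)
            · omega
            · omega
            · exact ⟨fun _ => h4 h1.1, fun _ => by omega⟩
          · rintro ⟨h4, _⟩
            right
            exact ⟨by omega, fun _ => h4 (by omega)⟩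
    exact zI_congr b fun c hc t => ⟨hv' _ (hAw c hc t).1, hv' _ (hAw c hc t).2⟩
  have e3 : zI b (A ∪ E) (I0 ∪ Iu ∪ K') 0 = zI b (A ∪ E) I 0 := by
    have hv' : ∀ v, -(w : ℤ) ≤ r.lam v → (v ∈ I0 ∪ Iu ∪ K' ↔ v ∈ I) := by
      intro v hv
      simp only [hI0, hIu, hK', Set.mem_union, Set.mem_setOf_eq]
      constructor
      · rintro ((⟨h4, _⟩ | ⟨h4, _⟩) | ⟨h4, h5⟩)
        · exact h4
        · exact h4
        · exact h5 hv
      · intro h
        rcases lt_or_ge (r.lam v) m with h1 | h1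
        · rcases lt_or_ge (-(m : ℤ)) (r.lam v) with h2 | h2
          · left; left
            exact ⟨h, abs_lt.2 ⟨h2, h1⟩⟩
          · right
            exact ⟨h2, fun _ => h⟩
        · left; right
          exact ⟨h, h1⟩
    refine zI_congr b fun c hc t => ?_
    rcases Finset.mem_union.1 hc with hc | hc
    · have h1 := hAw c hc t
      exact ⟨hv' _ (abs_le.1 h1.1).1, hv' _ (abs_le.1 h1.2).1⟩
    · have h1 := hEw c hc t
      exact ⟨hv' _ (by omega), hv' _ (by omega)⟩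
  have e4 : zI b (A ∪ E.image r.cm) (I0 ∪ K ∪ Id) 0 = zI b (A ∪ E) I 0 := by
    rw [← e3, ← zI_refl b r (A ∪ E) (I0 ∪ Iu ∪ K')]
    have h1 : (A ∪ E).image r.cm = A ∪ E.image r.cm := by
      rw [Finset.image_union]
      congr 1
      ext c
      constructor
      · intro hc
        obtain ⟨d, hd, rfl⟩ := Finset.mem_image.1 hc
        exact (hA d).2 hd
      · intro hc
        exact Finset.mem_image.2 ⟨r.cm c, (hA c).2 hc, r.cm_cm c⟩
    have h2 : {v | r.s v ∈ I0 ∪ Iu ∪ K'} = I0 ∪ K ∪ Id := by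
      ext v
      simp only [hI0, hIu, hId, hK, hK', Set.mem_union, Set.mem_setOf_eq, hs, abs_neg]
      constructor
      · rintro ((⟨h3, h4⟩ | ⟨h3, h4⟩) | ⟨h3, h4⟩)
        · left; left
          exact ⟨(hI v (by omega)).1 h3, h4⟩
        · right
          exact ⟨h3, by omega⟩
        · left; right
          exact ⟨by omega, fun h5 => h4 (by omega)⟩
      · rintro ((⟨h3, h4⟩ | ⟨h3, h4⟩) | ⟨h3, h4⟩)
        · left; left
          exact ⟨(hI v (by omega)).2 h3, h4⟩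
        · right
          exact ⟨by omega, fun h5 => h4 (by omega)⟩
        · left; right
          exact ⟨h3, by omega⟩
    rw [h1, h2]
  rw [e1, e2, e3, e4, ← pow_two] at key
  exact key

/-- **The reflection bound.** -/
theorem rho_refl (H : RhoAbs) {b : ℝ} (hb : 0 ≤ b) (r : Refl)
    (hs : ∀ v, r.lam (r.s v) = -r.lam v) {w : ℕ} (hw : 1 ≤ w) (A E : Finset (ℤ × ℤ))
    (I : Set (ℤ × ℤ)) (hA : ∀ c, r.cm c ∈ A ↔ c ∈ A)
    (hAw : ∀ c ∈ A, ∀ t, |r.lam (hu c t)| ≤ w ∧ |r.lam (hv c t)| ≤ w)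
    (hEw : ∀ c ∈ E, ∀ t, (w : ℤ) ≤ r.lam (hu c t) ∧ (w : ℤ) ≤ r.lam (hv c t))
    (hI : ∀ v, |r.lam v| < w → (r.s v ∈ I ↔ v ∈ I))
    (hI' : ∀ v, r.lam v = w → v ∈ I → r.s v ∈ I) (hAE : Disjoint A E) :
    zI b (A ∪ E ∪ E.image r.cm) (symU r I) 0 * zI b A (symD r I) 0 ≤
      Real.exp (cost b A (prof r w)) * zI b (A ∪ E) I 0 ^ 2 :=
  rho_gen H hb r hs hw le_rfl A E I hA hAw hEw hI hI' hAE

end Vale.Agent.P159.T1.H634
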