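import Vale.Agent.P159.T1.H634.RhoHV
import Vale.Agent.P159.T1.H634.RhoDbl
import Vale.Agent.P159.T1.H42.Rho
import Vale.Agent.P159.T1.H931.CsCut

/-!
The abstract bound `RhoAbs` from `H42.rho_le`, and the unconditional reflection bounds.
-/

set_option linter.all false
set_option autoImplicit false

open MeasureTheory Filter Topology
open scoped BigOperators

namespace Vale.Agent.P159.T1.H634

open Vale.Agent.P159 Vale.Agent.P159.UJ Vale.Agent.P159.H950
open Vale.Agent.P159.T1.H931 (chiI zI zI_pos Dbl op)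
open Vale.Agent.P159.T1.H42 (ZE st)

theorem zI_ZE (b : ℝ) (R : Finset (ℤ × ℤ)) (I : Set (ℤ × ℤ)) : zI b R I 0 = ZE b R I :=
  H42.ZE_eq b R I

/-- vertices of a region -/
noncomputable def vs (R : Finset (ℤ × ℤ)) : Finset (ℤ × ℤ) :=
  (R ×ˢ (Finset.univ : Finset HT)).image (fun p => hu p.1 p.2) ∪
    (R ×ˢ (Finset.univ : Finset HT)).image (fun p => hv p.1 p.2)

theorem mem_vs {R : Finset (ℤ × ℤ)} {v : ℤ × ℤ} : v ∈ vs R ↔ v ∈ st R := by
  unfold vs st
  simp only [Finset.mem_union, Finset.mem_image, Finset.mem_product, Finset.mem_univ, and_true,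
    Set.mem_setOf_eq]
  constructor
  · rintro (⟨p, h1, rfl⟩ | ⟨p, h1, rfl⟩)
    · exact ⟨p.1, h1, p.2, Or.inl rfl⟩
    · exact ⟨p.1, h1, p.2, Or.inr rfl⟩
  · rintro ⟨c, h1, t, rfl | rfl⟩
    · exact Or.inl ⟨(c, t), h1, rfl⟩
    · exact Or.inr ⟨(c, t), h1, rfl⟩

theorem ZE_congr (b : ℝ) {R : Finset (ℤ × ℤ)} {I I' : Set (ℤ × ℤ)}
    (h : ∀ v ∈ st R, (v ∈ I ↔ v ∈ I')) : ZE b R I = ZE b R I' := by
  unfold ZE
  rw [H42.EH_congr b R h]

theorem st_mono {R R' : Finset (ℤ × ℤ)} (h : R ⊆ R') : st R ⊆ st R' := by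
  rintro v ⟨c, hc, t, ht⟩
  exact ⟨c, h hc, t, ht⟩

theorem rhoAbs : RhoAbs := by
  classical
  intro b hb A E E' I0 U U' I I' K K' T hAE hAE' hEE' hEU hEU' hUU h0U h0U' hIK hKU hIK' hKU'
    hT0 hT1 hTU hTU'
  set V := vs (A ∪ E ∪ E') with hV
  have hVm : ∀ v, v ∈ V ↔ v ∈ st (A ∪ E ∪ E') := fun v => mem_vs
  set L := V.filter fun v => v ∈ K' with hL
  set L' := V.filter fun v => v ∈ K with hL'
  set La := V.filter fun v => v ∈ K' ∧ v ∉ I' with hLa
  set La' := V.filter fun v => v ∈ K ∧ v ∉ I with hLa'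
  have dU : ∀ v, v ∈ U → v ∉ U' := fun v h1 h2 => Set.disjoint_left.1 hUU h1 h2
  have d0U : ∀ v, v ∈ I0 → v ∉ U := fun v h1 h2 => Set.disjoint_left.1 h0U h1 h2
  have d0U' : ∀ v, v ∈ I0 → v ∉ U' := fun v h1 h2 => Set.disjoint_left.1 h0U' h1 h2
  have sE : ∀ v, v ∈ st E → v ∈ U := by
    rintro v ⟨c, hc, t, rfl | rfl⟩
    · exact (hEU c hc t).1
    · exact (hEU c hc t).2
  have sE' : ∀ v, v ∈ st E' → v ∈ U' := by
    rintro v ⟨c, hc, t, rfl | rfl⟩
    · exact (hEU' c hc t).1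
    · exact (hEU' c hc t).2
  have key := H42.rho_le hb hAE' hAE hEE'.symm (I0 ∪ K ∪ K') (L := L) (L' := L') (La := La)
    (La' := La')
    (by
      intro v hv
      simp only [hLa, hL, Finset.mem_filter] at hv ⊢
      exact ⟨hv.1, hv.2.1⟩)
    (by
      intro v hv
      simp only [hLa', hL', Finset.mem_filter] at hv ⊢
      exact ⟨hv.1, hv.2.1⟩)
    (by
      rw [Finset.disjoint_left]
      intro v h1 h2
      simp only [hL, hL', Finset.mem_filter] at h1 h2
      exact dU v (hKU h2.2) (hKU' h1.2))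
    (by
      intro v hv h1 _
      have h2 := sE' v h1
      simp only [hL, Finset.mem_filter]
      refine ⟨(hVm v).2 (st_mono Finset.subset_union_right h1), ?_⟩
      rcases hv with (h3 | h3) | h3
      · exact absurd h2 (d0U' v h3)
      · exact absurd h2 (dU v (hKU h3))
      · exact h3)
    (by
      intro v hv h1 _
      have h2 := sE v h1
      simp only [hL', Finset.mem_filter]
      refine ⟨(hVm v).2 (st_mono (Finset.subset_union_right.trans Finset.subset_union_left) h1), ?_⟩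
      rcases hv with (h3 | h3) | h3
      · exact absurd h2 (d0U v h3)
      · exact h3
      · exact absurd (hKU' h3) (dU v h2))
    T (fun v => ⟨hT0 v, hT1 v⟩)
    (by
      intro v hv
      simp only [hL, Finset.mem_filter] at hv
      exact hTU' v (hKU' hv.2))
    (by
      intro v hv
      simp only [hL', Finset.mem_filter] at hv
      exact hTU v (hKU hv.2))
  have e1 : zI b (A ∪ E ∪ E') (I0 ∪ I ∪ I') 0 =
      ZE b (A ∪ E' ∪ E) ((I0 ∪ K ∪ K') \ ((La ∪ La' : Finset (ℤ × ℤ)) : Set (ℤ × ℤ))) := by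
    rw [zI_ZE, Finset.union_right_comm A E' E]
    refine ZE_congr b fun v hv => ?_
    have hvV := (hVm v).2 hv
    simp only [Set.mem_union, Set.mem_diff, Finset.coe_union, hLa, hLa', Finset.coe_filter,
      Set.mem_setOf_eq, hvV, true_and]
    constructor
    · rintro ((h | h) | h)
      · exact ⟨Or.inl (Or.inl h), fun h3 => by
          rcases h3 with h3 | h3
          · exact d0U' v h (hKU' h3.1)
          · exact d0U v h (hKU h3.1)⟩
      · exact ⟨Or.inl (Or.inr (hIK h)), fun h3 => by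
          rcases h3 with h3 | h3
          · exact dU v (hKU (hIK h)) (hKU' h3.1)
          · exact h3.2 h⟩
      · exact ⟨Or.inr (hIK' h), fun h3 => by
          rcases h3 with h3 | h3
          · exact h3.2 h
          · exact dU v (hKU h3.1) (hKU' (hIK' h))⟩
    · rintro ⟨(h | h) | h, h3⟩
      · exact Or.inl (Or.inl h)
      · by_cases h4 : v ∈ I
        · exact Or.inl (Or.inr h4)
        · exact absurd (Or.inr ⟨h, h4⟩) h3
      · by_cases h4 : v ∈ I'
        · exact Or.inr h4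
        · exact absurd (Or.inl ⟨h, h4⟩) h3
  have e3 : zI b (A ∪ E) (I0 ∪ I ∪ K') 0 =
      ZE b (A ∪ E) ((I0 ∪ K ∪ K') \ (La' : Set (ℤ × ℤ))) := by
    rw [zI_ZE]
    refine ZE_congr b fun v hv => ?_
    have hvV := (hVm v).2 (st_mono Finset.subset_union_left hv)
    simp only [Set.mem_union, Set.mem_diff, hLa', Finset.coe_filter,
      Set.mem_setOf_eq, hvV, true_and]
    constructor
    · rintro ((h | h) | h)
      · exact ⟨Or.inl (Or.inl h), fun h3 => d0U v h (hKU h3.1)⟩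
      · exact ⟨Or.inl (Or.inr (hIK h)), fun h3 => h3.2 h⟩
      · exact ⟨Or.inr h, fun h3 => dU v (hKU h3.1) (hKU' h)⟩
    · rintro ⟨(h | h) | h, h3⟩
      · exact Or.inl (Or.inl h)
      · by_cases h4 : v ∈ I
        · exact Or.inl (Or.inr h4)
        · exact absurd ⟨h, h4⟩ h3
      · exact Or.inr h
  have e4 : zI b (A ∪ E') (I0 ∪ K ∪ I') 0 =
      ZE b (A ∪ E') ((I0 ∪ K ∪ K') \ (La : Set (ℤ × ℤ))) := by
    rw [zI_ZE]
    refine ZE_congr b fun v hv => ?_
    have hvV := (hVm v).2 (st_mono (Finset.union_subset_union Finset.subset_union_left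
      (Finset.Subset.refl _)) hv)
    simp only [Set.mem_union, Set.mem_diff, hLa, Finset.coe_filter,
      Set.mem_setOf_eq, hvV, true_and]
    constructor
    · rintro ((h | h) | h)
      · exact ⟨Or.inl (Or.inl h), fun h3 => d0U' v h (hKU' h3.1)⟩
      · exact ⟨Or.inl (Or.inr h), fun h3 => dU v (hKU h) (hKU' h3.1)⟩
      · exact ⟨Or.inr (hIK' h), fun h3 => h3.2 h⟩
    · rintro ⟨(h | h) | h, h3⟩
      · exact Or.inl (Or.inl h)
      · exact Or.inl (Or.inr h)
      · by_cases h4 : v ∈ I'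
        · exact Or.inr h4
        · exact absurd ⟨h, h4⟩ h3
  have e5 : ∑ e : KR A, b / 2 * H42.dT A T e ^ 2 = cost b A T :=
    H42.sum_KR' A fun c t => b / 2 * (T (hu c t) - T (hv c t)) ^ 2
  rw [e1, zI_ZE b A, e3, e4, ← e5, mul_comm (ZE b (A ∪ E) _)]
  exact key

end Vale.Agent.P159.T1.H634
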